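import Vale.Agent.Lib.P018.Product

/-!
# P018: the unconditional upper bound `limsup S(X) / X ≤ density`
-/

namespace Vale.Agent.Lib.P018

open Polynomial Finset Filter Topology

/-- Upper bound: for every `ε > 0`, eventually `S_{f,k}(X) ≤ (c_{f,k} + ε) X`. -/
theorem upper_bound (f : ℤ[X]) (hf : Irreducible (f.map (Int.castRingHom ℚ))) (k : ℕ)
    (hk : 2 ≤ k) (ε : ℝ) (hε : 0 < ε) :
    ∀ᶠ X : ℕ in atTop, (countPowerFree f k X : ℝ) ≤ (density f k + ε) * (X : ℝ) := by
  have ht := tendsto_partialDensity f hf k hk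
  obtain ⟨P, hP⟩ := (ht.eventually
    (eventually_lt_nhds (show density f k < density f k + ε / 2 by linarith))).exists
  obtain ⟨X0, hX0⟩ := exists_nat_ge (2 * (sieveMod k P : ℝ) / ε)
  filter_upwards [eventually_ge_atTop X0] with X hX
  have h1 := countPowerFree_le f k P X
  have hG1 := partialDensity_le_one f k P
  have hG0 := partialDensity_nonneg f k P
  have hXr : (2 * (sieveMod k P : ℝ) / ε) ≤ (X : ℝ) :=
    le_trans hX0 (by exact_mod_cast hX)
  have h2 : (sieveMod k P : ℝ) ≤ ε / 2 * (X : ℝ) := by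
    rw [div_le_iff₀ hε] at hXr; linarith
  have hX0' : (0 : ℝ) ≤ (X : ℝ) := Nat.cast_nonneg X
  have hQr : (0 : ℝ) ≤ (sieveMod k P : ℝ) := Nat.cast_nonneg _
  nlinarith [mul_le_mul_of_nonneg_right hP.le hX0', mul_le_mul_of_nonneg_right hG1 hQr]

end Vale.Agent.Lib.P018
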