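import Vale.Agent.Lib.P018.Good
import Vale.Agent.Lib.P018.Upper

/-!
# P018: the set of valid pairs `(d, k)` is upward closed in `k`
-/

namespace Vale.Agent.Lib.P018

open Polynomial Finset Filter Topology

/-- Counting: the `k'`-power-free values of `f` up to `N` include, for every surviving
residue class `b`, the values coming from `k`-power-free values of the attached polynomial. -/
theorem lower_count (f : ℤ[X]) (k k' : ℕ) (P : Finset Nat.Primes) (h : ℕ → ℤ[X])
    (hh : ∀ b ∈ (range (sieveMod k' P)).filter (Survives f k' P), ∀ m : ℕ,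
      IsPowerFree k ((h b).eval (m : ℤ)) →
        IsPowerFree k' (f.eval ((sieveMod k' P * m + b : ℕ) : ℤ)))
    (N : ℕ) :
    ∑ b ∈ (range (sieveMod k' P)).filter (Survives f k' P),
      countPowerFree (h b) k (N / sieveMod k' P - 1) ≤ countPowerFree f k' N := by
  classical
  have hQpos : 0 < sieveMod k' P := sieveMod_pos k' P
  unfold countPowerFree
  have himg : ∀ b ∈ (range (sieveMod k' P)).filter (Survives f k' P),
      (((Icc 1 (N / sieveMod k' P - 1)).filter
        (fun m : ℕ => IsPowerFree k ((h b).eval (m : ℤ)))).image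
          (fun m => sieveMod k' P * m + b)).card =
      ((Icc 1 (N / sieveMod k' P - 1)).filter
        (fun m : ℕ => IsPowerFree k ((h b).eval (m : ℤ)))).card := by
    intro b _
    apply Finset.card_image_of_injective
    intro m m' hmm
    simp only at hmm
    have h1 : sieveMod k' P * m = sieveMod k' P * m' := by omega
    exact Nat.eq_of_mul_eq_mul_left hQpos h1
  rw [← Finset.sum_congr rfl himg, ← Finset.card_biUnion]
  · apply Finset.card_le_card
    intro n hn
    simp only [mem_biUnion, mem_image, mem_filter, mem_Icc, mem_range] at hn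
    obtain ⟨b, hb, m, ⟨⟨hm1, hm2⟩, hpf⟩, rfl⟩ := hn
    simp only [mem_filter, mem_Icc]
    refine ⟨⟨?_, ?_⟩, hh b (by simp only [mem_filter, mem_range]; exact hb) m hpf⟩
    · have := Nat.mul_pos hQpos hm1
      omega
    · have h1 : m + 1 ≤ N / sieveMod k' P := by omega
      have h2 : sieveMod k' P * (m + 1) ≤ N :=
        le_trans (Nat.mul_le_mul_left _ h1) (Nat.mul_div_le N _)
      have h3 : sieveMod k' P * (m + 1) =
          sieveMod k' P * m + sieveMod k' P := by ring
      omega
  · intro b hb b' hb' hbb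
    rw [Function.onFun, Finset.disjoint_left]
    intro n hn hn'
    simp only [mem_image, mem_filter, mem_Icc] at hn hn'
    obtain ⟨m, -, rfl⟩ := hn
    obtain ⟨m', -, hmm⟩ := hn'
    apply hbb
    have hbQ : b < sieveMod k' P := by
      have := hb
      simp only [coe_filter, mem_range, Set.mem_ofPred_eq] at this
      exact this.1
    have hb'Q : b' < sieveMod k' P := by
      have := hb'
      simp only [coe_filter, mem_range, Set.mem_ofPred_eq] at this
      exact this.1
    have h1 : (sieveMod k' P * m' + b') % sieveMod k' P =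
        (sieveMod k' P * m + b) % sieveMod k' P := by rw [hmm]
    rw [Nat.mul_add_mod, Nat.mul_add_mod, Nat.mod_eq_of_lt hb'Q, Nat.mod_eq_of_lt hbQ] at h1
    exact h1.symm

theorem final_arith (c ε G σ Qr Xr Yr S : ℝ) (hε : 0 < ε) (hG0 : 0 ≤ G) (hG1 : G ≤ 1)
    (hσ : 0 ≤ σ) (hQ : 0 < Qr) (hX : 8 * Qr / ε ≤ Xr) (hY1 : Xr / Qr - 2 ≤ Yr)
    (hval : c - ε / 2 < G * (1 - σ))
    (hS : G * Qr * ((1 - σ - ε / 4) * Yr) ≤ S) (hS0 : 0 ≤ S) : (c - ε) * Xr ≤ S := by
  have hX0 : 0 ≤ Xr := le_trans (by positivity) hX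
  have hX8 : 8 * Qr ≤ ε * Xr := by
    rw [div_le_iff₀ hε] at hX; linarith
  by_cases ht : 0 ≤ 1 - σ - ε / 4
  · have h1 : G * Qr * ((1 - σ - ε / 4) * (Xr / Qr - 2)) ≤ S := by
      refine le_trans ?_ hS
      apply mul_le_mul_of_nonneg_left _ (by positivity)
      exact mul_le_mul_of_nonneg_left hY1 ht
    have e : G * Qr * ((1 - σ - ε / 4) * (Xr / Qr - 2)) =
        G * (1 - σ - ε / 4) * Xr - 2 * (G * (1 - σ - ε / 4)) * Qr := by
      field_simp
    have h2 : G * (1 - σ - ε / 4) ≤ 1 := by
      have : 1 - σ - ε / 4 ≤ 1 := by linarith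
      exact mul_le_one₀ hG1 ht this
    have h3 : 2 * (G * (1 - σ - ε / 4)) * Qr ≤ 2 * Qr := by nlinarith
    have h4 : (c - ε / 2) * Xr - ε / 4 * Xr ≤ G * (1 - σ - ε / 4) * Xr := by
      have h5 : G * (1 - σ - ε / 4) = G * (1 - σ) - G * (ε / 4) := by ring
      have h6 : G * (ε / 4) ≤ ε / 4 := by nlinarith
      have h7 : c - ε / 2 - ε / 4 ≤ G * (1 - σ - ε / 4) := by linarith
      nlinarith
    nlinarith
  · rw [not_le] at ht
    have h1 : G * (1 - σ) ≤ ε / 4 := by nlinarith
    have h2 : c - ε ≤ 0 := by linarith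
    nlinarith

/-- Lower bound for the count at exponent `k'`, from the asymptotic at exponent `k ≤ k'` for
the polynomials of the same degree without fixed prime divisor. -/
theorem lower_bound (k k' : ℕ) (hk : 2 ≤ k) (hkk' : k ≤ k') (f : ℤ[X])
    (hV : ∀ g : ℤ[X], g.natDegree = f.natDegree → Irreducible (g.map (Int.castRingHom ℚ)) →
      (∀ p : ℕ, p.Prime → rho g p < p) → HasAsymptotic g k)
    (hf : Irreducible (f.map (Int.castRingHom ℚ)))
    (ε : ℝ) (hε : 0 < ε) :
    ∀ᶠ N : ℕ in atTop, (density f k' - ε) * (N : ℝ) ≤ (countPowerFree f k' N : ℝ) := by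
  classical
  obtain ⟨B, hB⟩ := exists_bound_rho f hf
  have ht1 := tendsto_partialDensity f hf k' (by omega)
  have ht2 := tendsto_tail_major f.natDegree
  have ht3 : Tendsto (fun P : Finset Nat.Primes => partialDensity f k' P *
      (1 - (∑' p, major f.natDegree p - ∑ p ∈ P, major f.natDegree p))) atTop
      (𝓝 (density f k')) := by
    have := ht1.mul ((tendsto_const_nhds (x := (1 : ℝ))).sub ht2)
    simpa using this
  have hfin := finite_primes_le (max B f.natDegree)
  have hev1 : ∀ᶠ P : Finset Nat.Primes in atTop, hfin.toFinset ⊆ P :=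
    eventually_ge_atTop hfin.toFinset
  have hev2 := ht3.eventually
    (eventually_gt_nhds (show density f k' - ε / 2 < density f k' by linarith))
  obtain ⟨P, hPsub, hPval⟩ := (hev1.and hev2).exists
  have hPout : ∀ p : Nat.Primes, p ∉ P → max B f.natDegree < (p : ℕ) := by
    intro p hp
    by_contra hle
    rw [not_lt] at hle
    apply hp
    apply hPsub
    rw [Set.Finite.mem_toFinset]
    exact hle
  have hP1 : ∀ p : Nat.Primes, p ∉ P → ∀ j : ℕ, 1 ≤ j →
      rho f ((p : ℕ) ^ j) ≤ f.natDegree := by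
    intro p hp j hj
    exact hB p p.2 (lt_of_le_of_lt (le_max_left _ _) (hPout p hp)) j hj
  have hP2 : ∀ p : Nat.Primes, p ∉ P → f.natDegree < (p : ℕ) := by
    intro p hp
    exact lt_of_le_of_lt (le_max_right _ _) (hPout p hp)
  have hQpos : 0 < sieveMod k' P := sieveMod_pos k' P
  have hex : ∀ b : ℕ, ∃ h : ℤ[X],
      b ∈ (range (sieveMod k' P)).filter (Survives f k' P) →
      (h.natDegree = f.natDegree ∧ Irreducible (h.map (Int.castRingHom ℚ)) ∧
        (∀ p : ℕ, p.Prime → rho h p < p) ∧
        (∀ m : ℕ, IsPowerFree k (h.eval (m : ℤ)) →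
          IsPowerFree k' (f.eval ((sieveMod k' P * m + b : ℕ) : ℤ))) ∧
        1 - (∑' p, major f.natDegree p - ∑ p ∈ P, major f.natDegree p) ≤ density h k) := by
    intro b
    by_cases hb : b ∈ (range (sieveMod k' P)).filter (Survives f k' P)
    · obtain ⟨h, hh⟩ := exists_good_poly f hf k k' hk hkk' P hP1 hP2 b (mem_filter.mp hb).2
      exact ⟨h, fun _ => hh⟩
    · exact ⟨f, fun hb' => absurd hb' hb⟩
  choose h hh using hex
  have hσ0 : 0 ≤ ∑' p, major f.natDegree p - ∑ p ∈ P, major f.natDegree p := by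
    rw [sub_nonneg]
    exact (summable_major f.natDegree).sum_le_tsum _ (fun p _ => major_nonneg _ p)
  have hasym : ∀ b ∈ (range (sieveMod k' P)).filter (Survives f k' P),
      ∀ᶠ Y : ℕ in atTop,
        (1 - (∑' p, major f.natDegree p - ∑ p ∈ P, major f.natDegree p) - ε / 4) * (Y : ℝ) ≤
          (countPowerFree (h b) k Y : ℝ) := by
    intro b hb
    obtain ⟨hd, hirr, hloc, -, hden⟩ := hh b hb
    have hA : Tendsto (fun N : ℕ => (countPowerFree (h b) k N : ℝ) / (N : ℝ)) atTop
        (𝓝 (density (h b) k)) := hV (h b) hd hirr hloc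
    have hA2 := hA.eventually
      (eventually_gt_nhds (show density (h b) k - ε / 4 < density (h b) k by linarith))
    filter_upwards [hA2, eventually_gt_atTop 0] with Y hY hYpos
    have hYr : (0 : ℝ) < (Y : ℝ) := by exact_mod_cast hYpos
    rw [lt_div_iff₀ hYr] at hY
    nlinarith
  have hall := (eventually_all_finset
    ((range (sieveMod k' P)).filter (Survives f k' P))).mpr hasym
  have htend : Tendsto (fun N : ℕ => N / sieveMod k' P - 1) atTop atTop := by
    rw [tendsto_atTop]
    intro Y0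
    filter_upwards [eventually_ge_atTop ((Y0 + 1) * sieveMod k' P)] with N hN
    have : Y0 + 1 ≤ N / sieveMod k' P := (Nat.le_div_iff_mul_le hQpos).mpr hN
    omega
  have hallN := htend.eventually hall
  obtain ⟨N1, hN1⟩ := exists_nat_ge (8 * (sieveMod k' P : ℝ) / ε)
  filter_upwards [hallN, eventually_ge_atTop N1] with N hN hNN1
  have hcount := lower_count f k k' P h (fun b hb => (hh b hb).2.2.2.1) N
  have hsum : (((range (sieveMod k' P)).filter (Survives f k' P)).card : ℝ) *
      ((1 - (∑' p, major f.natDegree p - ∑ p ∈ P, major f.natDegree p) - ε / 4) *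
        ((N / sieveMod k' P - 1 : ℕ) : ℝ)) ≤
      ∑ b ∈ (range (sieveMod k' P)).filter (Survives f k' P),
        (countPowerFree (h b) k (N / sieveMod k' P - 1) : ℝ) := by
    rw [← nsmul_eq_mul, ← Finset.sum_const]
    exact Finset.sum_le_sum (fun b hb => hN b hb)
  have hcountR : (∑ b ∈ (range (sieveMod k' P)).filter (Survives f k' P),
      (countPowerFree (h b) k (N / sieveMod k' P - 1) : ℝ)) ≤
      (countPowerFree f k' N : ℝ) := by
    exact_mod_cast hcount
  rw [card_survives_real] at hsum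
  have hY1 : (N : ℝ) / (sieveMod k' P : ℝ) - 2 ≤
      ((N / sieveMod k' P - 1 : ℕ) : ℝ) := by
    have h1 : N < N / sieveMod k' P * sieveMod k' P + sieveMod k' P :=
      Nat.lt_div_mul_add hQpos
    have h2 : N / sieveMod k' P ≤ (N / sieveMod k' P - 1) + 1 := by omega
    have h1r : (N : ℝ) < ((N / sieveMod k' P : ℕ) : ℝ) * (sieveMod k' P : ℝ) +
        (sieveMod k' P : ℝ) := by exact_mod_cast h1
    have h2r : ((N / sieveMod k' P : ℕ) : ℝ) ≤
        ((N / sieveMod k' P - 1 : ℕ) : ℝ) + 1 := by exact_mod_cast h2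
    have hQr : (0 : ℝ) < (sieveMod k' P : ℝ) := by exact_mod_cast hQpos
    have h3 : (N : ℝ) / (sieveMod k' P : ℝ) < ((N / sieveMod k' P : ℕ) : ℝ) + 1 := by
      rw [div_lt_iff₀ hQr]; nlinarith
    linarith
  exact final_arith (density f k') ε (partialDensity f k' P)
    (∑' p, major f.natDegree p - ∑ p ∈ P, major f.natDegree p) (sieveMod k' P : ℝ) (N : ℝ)
    ((N / sieveMod k' P - 1 : ℕ) : ℝ) (countPowerFree f k' N : ℝ) hε
    (partialDensity_nonneg f k' P) (partialDensity_le_one f k' P) hσ0
    (by exact_mod_cast hQpos) (le_trans hN1 (by exact_mod_cast hNN1)) hY1 hPval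
    (le_trans hsum hcountR) (Nat.cast_nonneg _)

theorem localCond_of_noFixed (f : ℤ[X]) (k : ℕ) (hk : 1 ≤ k)
    (h : ∀ p : ℕ, p.Prime → rho f p < p) : LocalCond f k := by
  intro p hp
  have h1 := h p hp
  unfold rho at h1 ⊢
  -- some residue `a < p` is not a root modulo `p`
  have hex : ∃ a ∈ range p, ¬ ((p : ℤ) ∣ f.eval (a : ℤ)) := by
    by_contra hall
    have hall' : ∀ a ∈ range p, (p : ℤ) ∣ f.eval (a : ℤ) := by
      intro a ha
      by_contra hn
      exact hall ⟨a, ha, hn⟩
    rw [Finset.filter_true_of_mem hall', Finset.card_range] at h1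
    exact lt_irrefl _ h1
  obtain ⟨a, ha, hna⟩ := hex
  have hle : p ≤ p ^ k := Nat.le_self_pow (by omega) p
  have hsub : (range (p ^ k)).filter (fun a : ℕ => ((p ^ k : ℕ) : ℤ) ∣ f.eval (a : ℤ)) ⊂
      range (p ^ k) := by
    rw [Finset.filter_ssubset]
    refine ⟨a, ?_, ?_⟩
    · rw [mem_range] at ha ⊢; omega
    · intro hd
      apply hna
      refine dvd_trans ?_ hd
      push_cast
      exact dvd_pow_self _ (by omega)
  have := Finset.card_lt_card hsub
  rwa [Finset.card_range] at this

/-- Main theorem: let `2 ≤ k ≤ k'`. If the predicted asymptotic at exponent `k` holds for all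
polynomials of degree `d`, irreducible over the rationals, without a fixed prime divisor,
then the pair `(d, k')` is valid. -/
theorem validPair_of_noFixed (d k k' : ℕ) (hk : 2 ≤ k) (hkk' : k ≤ k')
    (hV : ∀ f : ℤ[X], f.natDegree = d → Irreducible (f.map (Int.castRingHom ℚ)) →
      (∀ p : ℕ, p.Prime → rho f p < p) → HasAsymptotic f k) : ValidPair d k' := by
  intro f hdeg hf _
  subst hdeg
  unfold HasAsymptotic
  rw [Metric.tendsto_nhds]
  intro ε hε
  have hup := upper_bound f hf k' (by omega) (ε / 2) (by linarith)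
  have hlow := lower_bound k k' hk hkk' f hV hf (ε / 2) (by linarith)
  filter_upwards [hup, hlow, eventually_gt_atTop 0] with N h1 h2 hN
  have hNr : (0 : ℝ) < (N : ℝ) := by exact_mod_cast hN
  have e1 : density f k' - ε / 2 ≤ (countPowerFree f k' N : ℝ) / (N : ℝ) := by
    rw [le_div_iff₀ hNr]; exact h2
  have e2 : (countPowerFree f k' N : ℝ) / (N : ℝ) ≤ density f k' + ε / 2 := by
    rw [div_le_iff₀ hNr]; exact h1
  rw [Real.dist_eq, abs_lt]
  constructor <;> linarith

/-- The set of valid pairs is upward closed in the exponent. -/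
theorem validPair_mono (d k k' : ℕ) (hk : 2 ≤ k) (hkk' : k ≤ k') (hV : ValidPair d k) :
    ValidPair d k' :=
  validPair_of_noFixed d k k' hk hkk' fun f hdeg hf hnf =>
    hV f hdeg hf (localCond_of_noFixed f k (by omega) hnf)

end Vale.Agent.Lib.P018
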