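import Mathlib

/-!
# P018: power-free values of polynomials, definitions

`rho f q` is the number of residues `a` modulo `q` with `f a ≡ 0 (mod q)`;
`countPowerFree f k N` is the number of `1 ≤ n ≤ N` with `f n` `k`-power-free;
`density f k` is the predicted density, the product over all primes `p` of
`1 - rho f (p ^ k) / p ^ k`.
-/

namespace Vale.Agent.Lib.P018

open Polynomial

/-- The number of residues `a` modulo `q` such that `q` divides `f a`. -/
def rho (f : ℤ[X]) (q : ℕ) : ℕ :=
  ((Finset.range q).filter (fun a : ℕ => (q : ℤ) ∣ f.eval (a : ℤ))).card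

/-- An integer is `k`-power-free if it is nonzero and no `k`-th power of a prime divides it. -/
def IsPowerFree (k : ℕ) (a : ℤ) : Prop :=
  a ≠ 0 ∧ ∀ p : ℕ, p.Prime → ¬ ((p : ℤ) ^ k ∣ a)

/-- The number of integers `n` with `1 ≤ n ≤ N` such that `f n` is `k`-power-free. -/
noncomputable def countPowerFree (f : ℤ[X]) (k N : ℕ) : ℕ :=
  open Classical in
  ((Finset.Icc 1 N).filter (fun n : ℕ => IsPowerFree k (f.eval (n : ℤ)))).card

/-- The local condition at exponent `k`: no `k`-th power of a prime divides all values of `f`. -/
def LocalCond (f : ℤ[X]) (k : ℕ) : Prop :=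
  ∀ p : ℕ, p.Prime → rho f (p ^ k) < p ^ k

/-- The predicted density of `k`-power-free values of `f`. -/
noncomputable def density (f : ℤ[X]) (k : ℕ) : ℝ :=
  ∏' p : Nat.Primes, (1 - (rho f ((p : ℕ) ^ k) : ℝ) / (((p : ℕ) ^ k : ℕ) : ℝ))

/-- The predicted asymptotic: `countPowerFree f k N = density f k * N + o(N)`. -/
def HasAsymptotic (f : ℤ[X]) (k : ℕ) : Prop :=
  Filter.Tendsto (fun N : ℕ => (countPowerFree f k N : ℝ) / (N : ℝ)) Filter.atTop
    (nhds (density f k))

/-- The pair `(d, k)` is valid: the predicted asymptotic holds for every polynomial of degree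
`d` with integer coefficients that is irreducible over the rationals and satisfies the local
condition at exponent `k`. -/
def ValidPair (d k : ℕ) : Prop :=
  ∀ f : ℤ[X], f.natDegree = d → Irreducible (f.map (Int.castRingHom ℚ)) → LocalCond f k →
    HasAsymptotic f k

end Vale.Agent.Lib.P018
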