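import Vale.Agent.Lib.P018.Roots

/-!
# P018: convergence of the Euler product for the predicted density
-/

namespace Vale.Agent.Lib.P018

open Polynomial Finset Filter Topology

theorem summable_inv_sq_primes : Summable (fun p : Nat.Primes => 1 / ((p : ℕ) : ℝ) ^ 2) := by
  have h := (Real.summable_one_div_nat_pow (p := 2)).mpr (by norm_num)
  exact h.comp_injective Nat.Primes.coe_nat_injective

/-- The summable majorant `d / p ^ 2`. -/
noncomputable def major (d : ℕ) (p : Nat.Primes) : ℝ := (d : ℝ) * (1 / ((p : ℕ) : ℝ) ^ 2)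

theorem major_nonneg (d : ℕ) (p : Nat.Primes) : 0 ≤ major d p := by
  unfold major; positivity

theorem summable_major (d : ℕ) : Summable (major d) :=
  summable_inv_sq_primes.mul_left _

theorem rho_div_le_major (f : ℤ[X]) (d : ℕ) (p : Nat.Primes) (j : ℕ) (hj : 2 ≤ j)
    (h : rho f ((p : ℕ) ^ j) ≤ d) :
    (rho f ((p : ℕ) ^ j) : ℝ) / (((p : ℕ) ^ j : ℕ) : ℝ) ≤ major d p := by
  have hp2 : (2 : ℝ) ≤ ((p : ℕ) : ℝ) := by exact_mod_cast p.2.two_le
  have hpk : ((p : ℕ) : ℝ) ^ 2 ≤ ((p : ℕ) : ℝ) ^ j := pow_le_pow_right₀ (by linarith) hj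
  have hpos : (0 : ℝ) < ((p : ℕ) : ℝ) ^ 2 := by positivity
  have h1 : (rho f ((p : ℕ) ^ j) : ℝ) ≤ (d : ℝ) := by exact_mod_cast h
  unfold major
  push_cast
  rw [mul_one_div]
  calc (rho f ((p : ℕ) ^ j) : ℝ) / ((p : ℕ) : ℝ) ^ j
      ≤ (d : ℝ) / ((p : ℕ) : ℝ) ^ j := by gcongr
    _ ≤ (d : ℝ) / ((p : ℕ) : ℝ) ^ 2 := by gcongr

theorem finite_primes_le (B : ℕ) : {p : Nat.Primes | (p : ℕ) ≤ B}.Finite := by
  apply Set.Finite.subset
    (Set.Finite.preimage Nat.Primes.coe_nat_injective.injOn (Set.finite_Iic B))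
  intro p hp
  exact hp

theorem summable_rho_div (f : ℤ[X]) (hf : Irreducible (f.map (Int.castRingHom ℚ))) (k : ℕ)
    (hk : 2 ≤ k) :
    Summable (fun p : Nat.Primes => (rho f ((p : ℕ) ^ k) : ℝ) / (((p : ℕ) ^ k : ℕ) : ℝ)) := by
  obtain ⟨B, hB⟩ := exists_bound_rho f hf
  apply Summable.of_norm_bounded_eventually (summable_major f.natDegree)
  rw [Filter.eventually_cofinite]
  apply (finite_primes_le B).subset
  intro p hp
  simp only [Set.mem_ofPred_eq, not_le] at hp ⊢
  by_contra hlt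
  rw [not_le] at hlt
  apply absurd hp
  rw [not_lt, Real.norm_of_nonneg (by positivity)]
  exact rho_div_le_major f _ p k hk (hB p p.2 hlt k (by omega))

theorem multipliable_factor (f : ℤ[X]) (hf : Irreducible (f.map (Int.castRingHom ℚ))) (k : ℕ)
    (hk : 2 ≤ k) :
    Multipliable (fun p : Nat.Primes =>
      1 - (rho f ((p : ℕ) ^ k) : ℝ) / (((p : ℕ) ^ k : ℕ) : ℝ)) := by
  have h := Real.multipliable_one_add_of_summable (summable_rho_div f hf k hk).neg
  simpa [sub_eq_add_neg] using h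

theorem tendsto_partialDensity (f : ℤ[X]) (hf : Irreducible (f.map (Int.castRingHom ℚ)))
    (k : ℕ) (hk : 2 ≤ k) :
    Tendsto (fun P : Finset Nat.Primes => partialDensity f k P) atTop (𝓝 (density f k)) :=
  (multipliable_factor f hf k hk).hasProd

theorem one_sub_sum_le_prod {ι : Type*} (x : ι → ℝ) (F : Finset ι)
    (h0 : ∀ i ∈ F, 0 ≤ x i) (h1 : ∀ i ∈ F, x i ≤ 1) :
    1 - ∑ i ∈ F, x i ≤ ∏ i ∈ F, (1 - x i) := by
  classical
  induction F using Finset.induction_on with
  | empty => simp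
  | insert a F ha ih =>
    rw [Finset.sum_insert ha, Finset.prod_insert ha]
    have ih' := ih (fun i hi => h0 i (Finset.mem_insert_of_mem hi))
      (fun i hi => h1 i (Finset.mem_insert_of_mem hi))
    have hx0 := h0 a (Finset.mem_insert_self a F)
    have hx1 := h1 a (Finset.mem_insert_self a F)
    have hs : 0 ≤ ∑ i ∈ F, x i :=
      Finset.sum_nonneg fun i hi => h0 i (Finset.mem_insert_of_mem hi)
    nlinarith [mul_le_mul_of_nonneg_left ih' (sub_nonneg.mpr hx1), mul_nonneg hx0 hs]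

/-- A lower bound for an infinite product whose factors are trivial on `P` and controlled by
a summable majorant outside `P`. -/
theorem tprod_lower_bound (x u : Nat.Primes → ℝ) (P : Finset Nat.Primes)
    (hx0 : ∀ p, 0 ≤ x p) (hx1 : ∀ p, x p ≤ 1) (hmul : Multipliable (fun p => 1 - x p))
    (hu0 : ∀ p, 0 ≤ u p) (hu : Summable u) (hP : ∀ p ∈ P, x p = 0)
    (hxu : ∀ p, p ∉ P → x p ≤ u p) :
    1 - (∑' p, u p - ∑ p ∈ P, u p) ≤ ∏' p, (1 - x p) := by
  classical
  have hprod : Tendsto (fun F : Finset Nat.Primes => ∏ p ∈ F, (1 - x p)) atTop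
      (𝓝 (∏' p, (1 - x p))) := hmul.hasProd
  apply ge_of_tendsto' hprod
  intro F
  have h1 := one_sub_sum_le_prod x F (fun p _ => hx0 p) (fun p _ => hx1 p)
  refine le_trans ?_ h1
  have h2 : ∑ p ∈ F, x p ≤ ∑ p ∈ F \ P, u p := by
    rw [← Finset.sum_sdiff (Finset.inter_subset_left (s₁ := F) (s₂ := P))]
    have h3 : ∑ p ∈ F ∩ P, x p = 0 :=
      Finset.sum_eq_zero fun p hp => hP p (Finset.mem_inter.mp hp).2
    have h4 : F \ (F ∩ P) = F \ P := by
      ext p
      simp only [Finset.mem_sdiff, Finset.mem_inter, not_and]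
      tauto
    rw [h3, add_zero, h4]
    exact Finset.sum_le_sum fun p hp => hxu p (Finset.mem_sdiff.mp hp).2
  have h5 : ∑ p ∈ F \ P, u p + ∑ p ∈ P, u p ≤ ∑' p, u p := by
    rw [← Finset.sum_union Finset.sdiff_disjoint]
    exact hu.sum_le_tsum _ (fun p _ => hu0 p)
  linarith

theorem tendsto_tail_major (d : ℕ) :
    Tendsto (fun P : Finset Nat.Primes => ∑' p, major d p - ∑ p ∈ P, major d p) atTop
      (𝓝 0) := by
  have h : Tendsto (fun P : Finset Nat.Primes => ∑ p ∈ P, major d p) atTop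
      (𝓝 (∑' p, major d p)) := (summable_major d).hasSum
  have h2 := (tendsto_const_nhds (x := ∑' p, major d p)).sub h
  simpa using h2

end Vale.Agent.Lib.P018
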