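import Vale.Agent.Lib.P018.Sieve

/-!
# P018: the number of roots modulo prime powers is bounded by the degree for large primes
-/

namespace Vale.Agent.Lib.P018

open Polynomial Finset

theorem natDegree_pos_of_irr (f : ℤ[X]) (hf : Irreducible (f.map (Int.castRingHom ℚ))) :
    0 < f.natDegree := by
  have := Irreducible.natDegree_pos hf
  rwa [natDegree_map_eq_of_injective (RingHom.injective_int (Int.castRingHom ℚ))] at this

/-- A Bezout identity over the integers for `f` and its derivative. -/
theorem exists_bezout (f : ℤ[X]) (hf : Irreducible (f.map (Int.castRingHom ℚ))) :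
    ∃ (u v : ℤ[X]) (R : ℤ), R ≠ 0 ∧ f * u + derivative f * v = C R := by
  have hinj : Function.Injective (Int.castRingHom ℚ) := RingHom.injective_int _
  have hdeg : f.natDegree ≠ 0 := (natDegree_pos_of_irr f hf).ne'
  obtain ⟨u, v, -, -, h⟩ :=
    exists_mul_add_mul_eq_C_resultant f (derivative f) le_rfl le_rfl (Or.inl hdeg)
  refine ⟨u, v, _, ?_, h⟩
  intro h0
  have hsep : (f.map (Int.castRingHom ℚ)).Separable := hf.separable
  have hcop : IsCoprime (f.map (Int.castRingHom ℚ))
      ((derivative f).map (Int.castRingHom ℚ)) := by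
    rw [← derivative_map]
    exact hsep
  have hres := resultant_ne_zero _ _ hcop
  rw [natDegree_map_eq_of_injective hinj, natDegree_map_eq_of_injective hinj,
    resultant_map_map, h0] at hres
  simp at hres

theorem not_dvd_derivative {f u v : ℤ[X]} {R : ℤ} (h : f * u + derivative f * v = C R)
    {p : ℕ} (hpR : ¬ (p : ℤ) ∣ R) {a : ℤ} (ha : (p : ℤ) ∣ f.eval a) :
    ¬ (p : ℤ) ∣ (derivative f).eval a := by
  intro hd
  apply hpR
  have := congrArg (Polynomial.eval a) h
  simp only [eval_add, eval_mul, eval_C] at this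
  rw [← this]
  exact dvd_add (Dvd.dvd.mul_right ha _) (Dvd.dvd.mul_right hd _)

/-- Two roots modulo `p ^ j` that are congruent modulo `p` are congruent modulo `p ^ j`. -/
theorem dvd_sub_of_roots {f u v : ℤ[X]} {R : ℤ} (h : f * u + derivative f * v = C R)
    {p : ℕ} (hp : p.Prime) (hpR : ¬ (p : ℤ) ∣ R) (j : ℕ) (a a' : ℤ)
    (ha : (p : ℤ) ^ j ∣ f.eval a) (ha' : (p : ℤ) ^ j ∣ f.eval a')
    (hmod : (p : ℤ) ∣ a' - a) (hj : 1 ≤ j) : (p : ℤ) ^ j ∣ a' - a := by
  have key : ∀ i : ℕ, 1 ≤ i → i ≤ j → (p : ℤ) ^ i ∣ a' - a := by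
    intro i hi
    induction i, hi using Nat.le_induction with
    | base => intro _; simpa using hmod
    | succ i hi ih =>
      intro hij
      have hdiv := ih (by omega)
      obtain ⟨K, hK⟩ := Polynomial.binomExpansion f a (a' - a)
      have e1 : f.eval a' = f.eval a + (derivative f).eval a * (a' - a) + K * (a' - a) ^ 2 := by
        rw [← hK]; congr 1; ring
      have hpa : (p : ℤ) ∣ f.eval a := dvd_trans (dvd_pow_self _ (by omega)) ha
      have hnd := not_dvd_derivative h hpR hpa
      have h1 : (p : ℤ) ^ (i + 1) ∣ f.eval a' := dvd_trans (pow_dvd_pow _ hij) ha'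
      have h2 : (p : ℤ) ^ (i + 1) ∣ f.eval a := dvd_trans (pow_dvd_pow _ hij) ha
      have h3 : (p : ℤ) ^ (i + 1) ∣ K * (a' - a) ^ 2 := by
        apply Dvd.dvd.mul_left
        have h5 : (p : ℤ) ^ (i + 1) ∣ ((p : ℤ) ^ i) ^ 2 := by
          rw [← pow_mul]
          exact pow_dvd_pow _ (by omega)
        exact dvd_trans h5 (pow_dvd_pow_of_dvd hdiv 2)
      have h4 : (p : ℤ) ^ (i + 1) ∣ (derivative f).eval a * (a' - a) := by
        have : (derivative f).eval a * (a' - a) =
            f.eval a' - f.eval a - K * (a' - a) ^ 2 := by rw [e1]; ring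
        rw [this]
        exact dvd_sub (dvd_sub h1 h2) h3
      have hcop : IsCoprime ((p : ℤ) ^ (i + 1)) ((derivative f).eval a) := by
        apply IsCoprime.pow_left
        have hirr : Irreducible (p : ℤ) := (Nat.prime_iff_prime_int.mp hp).irreducible
        exact hirr.coprime_iff_not_dvd.mpr hnd
      exact hcop.dvd_of_dvd_mul_left h4
  exact key j hj le_rfl

theorem rho_prime_le (f : ℤ[X]) (p : ℕ) (hp : p.Prime) (hlc : ¬ (p : ℤ) ∣ f.leadingCoeff) :
    rho f p ≤ f.natDegree := by
  have := Fact.mk hp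
  have hne : f.map (Int.castRingHom (ZMod p)) ≠ 0 := by
    intro h0
    apply hlc
    have h1 : (f.map (Int.castRingHom (ZMod p))).coeff f.natDegree = 0 := by rw [h0]; simp
    rw [coeff_map] at h1
    exact (ZMod.intCast_zmod_eq_zero_iff_dvd _ _).mp h1
  unfold rho
  calc ((range p).filter (fun a : ℕ => (p : ℤ) ∣ f.eval (a : ℤ))).card
      ≤ (f.map (Int.castRingHom (ZMod p))).roots.toFinset.card := by
        apply Finset.card_le_card_of_injOn (fun a : ℕ => (a : ZMod p))
        · intro a ha
          simp only [coe_filter, mem_range, Set.mem_ofPred_eq] at ha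
          have h1 : eval ((a : ℤ) : ZMod p) (f.map (Int.castRingHom (ZMod p))) =
              ((f.eval (a : ℤ) : ℤ) : ZMod p) := by
            rw [eval_intCast_map]; simp
          have h2 : ((f.eval (a : ℤ) : ℤ) : ZMod p) = 0 :=
            (ZMod.intCast_zmod_eq_zero_iff_dvd _ _).mpr ha.2
          simp only [Finset.mem_coe, Multiset.mem_toFinset]
          rw [mem_roots hne, IsRoot.def]
          have h3 : ((a : ℕ) : ZMod p) = (((a : ℤ)) : ZMod p) := by simp
          rw [h3, h1, h2]
        · intro a ha a' ha' h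
          simp only [coe_filter, mem_range, Set.mem_ofPred_eq] at ha ha'
          simp only at h
          have := (ZMod.natCast_eq_natCast_iff a a' p).mp h
          exact Nat.ModEq.eq_of_lt_of_lt this ha.1 ha'.1
    _ ≤ Multiset.card (f.map (Int.castRingHom (ZMod p))).roots := Multiset.toFinset_card_le _
    _ ≤ (f.map (Int.castRingHom (ZMod p))).natDegree := card_roots' _
    _ ≤ f.natDegree := natDegree_map_le

theorem rho_prime_pow_le (f u v : ℤ[X]) (R : ℤ) (h : f * u + derivative f * v = C R) (p : ℕ)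
    (hp : p.Prime) (hpR : ¬ (p : ℤ) ∣ R) (j : ℕ) (hj : 1 ≤ j) : rho f (p ^ j) ≤ rho f p := by
  unfold rho
  apply Finset.card_le_card_of_injOn (fun a => a % p)
  · intro a ha
    simp only [coe_filter, mem_range, Set.mem_ofPred_eq] at ha ⊢
    refine ⟨Nat.mod_lt _ hp.pos, ?_⟩
    rw [dvd_eval_mod f p p (dvd_refl _)]
    refine dvd_trans ?_ ha.2
    push_cast
    exact dvd_pow_self _ (by omega)
  · intro a ha a' ha' hmod
    simp only [coe_filter, mem_range, Set.mem_ofPred_eq] at ha ha'
    simp only at hmod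
    have h1 : (p : ℤ) ∣ (a' : ℤ) - (a : ℤ) := by
      have : a ≡ a' [MOD p] := hmod
      exact Nat.modEq_iff_dvd.mp this
    have h2 := dvd_sub_of_roots h hp hpR j (a : ℤ) (a' : ℤ) (by exact_mod_cast ha.2)
      (by exact_mod_cast ha'.2) h1 hj
    have h3 : a ≡ a' [MOD p ^ j] := by
      rw [Nat.modEq_iff_dvd]; push_cast; exact h2
    exact Nat.ModEq.eq_of_lt_of_lt h3 ha.1 ha'.1

/-- For an irreducible polynomial, beyond some bound `B`, the number of roots modulo any power
of a prime `p > B` is at most the degree. -/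
theorem exists_bound_rho (f : ℤ[X]) (hf : Irreducible (f.map (Int.castRingHom ℚ))) :
    ∃ B : ℕ, ∀ p : ℕ, p.Prime → B < p → ∀ j : ℕ, 1 ≤ j → rho f (p ^ j) ≤ f.natDegree := by
  obtain ⟨u, v, R, hR, h⟩ := exists_bezout f hf
  have hlc0 : f.leadingCoeff ≠ 0 := by
    rw [Ne, leadingCoeff_eq_zero]
    intro h0
    have := natDegree_pos_of_irr f hf
    rw [h0] at this
    simp at this
  refine ⟨R.natAbs + f.leadingCoeff.natAbs, ?_⟩
  intro p hp hB j hj
  have hpR : ¬ (p : ℤ) ∣ R := by
    intro hd
    have h1 := Int.natCast_dvd.mp hd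
    have h2 := Nat.le_of_dvd (Int.natAbs_pos.mpr hR) h1
    omega
  have hlc : ¬ (p : ℤ) ∣ f.leadingCoeff := by
    intro hd
    have h1 := Int.natCast_dvd.mp hd
    have h2 := Nat.le_of_dvd (Int.natAbs_pos.mpr hlc0) h1
    omega
  exact le_trans (rho_prime_pow_le f u v R h p hp hpR j hj) (rho_prime_le f p hp hlc)

end Vale.Agent.Lib.P018
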