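import Vale.Agent.Lib.P018.Product

/-!
# P018: restricting a polynomial to a residue class and dividing out the fixed part
-/

namespace Vale.Agent.Lib.P018

open Polynomial Finset

section Shift

theorem exists_shift (f : ℤ[X]) (Q b D : ℤ) (hD1 : D ∣ f.eval b) (hD2 : D ∣ Q) :
    ∃ h : ℤ[X], f.comp (C Q * X + C b) = C D * h := by
  have h1 : (C Q * X + C b) - C b ∣ (f.map C).eval (C Q * X + C b) - (f.map C).eval (C b) :=
    Polynomial.sub_dvd_eval_sub _ _ _
  have e1 : (f.map C).eval (C Q * X + C b) = f.comp (C Q * X + C b) := by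
    rw [eval_map]; rfl
  have e2 : (f.map C).eval (C b) = C (f.eval b) := by
    rw [eval_map]; exact comp_C
  rw [e1, e2, add_sub_cancel_right] at h1
  have h2 : C D ∣ C Q * X := Dvd.dvd.mul_right (map_dvd C hD2) X
  have h3 : C D ∣ C (f.eval b) := map_dvd C hD1
  have h4 : C D ∣ f.comp (C Q * X + C b) := by
    have := dvd_add (dvd_trans h2 h1) h3
    rwa [sub_add_cancel] at this
  exact h4

theorem shift_eval {f h : ℤ[X]} {Q b D : ℤ} (hh : f.comp (C Q * X + C b) = C D * h) (m : ℤ) :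
    f.eval (Q * m + b) = D * h.eval m := by
  have := congrArg (Polynomial.eval m) hh
  simpa [eval_comp] using this

theorem shift_natDegree {f h : ℤ[X]} {Q b D : ℤ} (hh : f.comp (C Q * X + C b) = C D * h)
    (hQ : Q ≠ 0) (hD : D ≠ 0) : h.natDegree = f.natDegree := by
  have h1 : (f.comp (C Q * X + C b)).natDegree = f.natDegree := by
    rw [natDegree_comp, natDegree_linear hQ, mul_one]
  rw [hh, natDegree_C_mul hD] at h1
  exact h1

theorem shift_irreducible {f h : ℤ[X]} {Q b D : ℤ} (hh : f.comp (C Q * X + C b) = C D * h)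
    (hQ : Q ≠ 0) (hD : D ≠ 0) (hf : Irreducible (f.map (Int.castRingHom ℚ))) :
    Irreducible (h.map (Int.castRingHom ℚ)) := by
  have hQ' : (Q : ℚ) ≠ 0 := by exact_mod_cast hQ
  have hD' : (D : ℚ) ≠ 0 := by exact_mod_cast hD
  let _ : Invertible (Q : ℚ) := invertibleOfNonzero hQ'
  have e := congrArg (Polynomial.map (Int.castRingHom ℚ)) hh
  rw [map_comp] at e
  simp only [Polynomial.map_add, Polynomial.map_mul, Polynomial.map_C, Polynomial.map_X] at e
  simp only [eq_intCast] at e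
  have h1 : Irreducible ((f.map (Int.castRingHom ℚ)).comp (C (Q : ℚ) * X + C (b : ℚ))) := by
    have h2 : (algEquivCMulXAddC (Q : ℚ) (b : ℚ)) (f.map (Int.castRingHom ℚ)) =
        (f.map (Int.castRingHom ℚ)).comp (C (Q : ℚ) * X + C (b : ℚ)) := by
      simp [algEquivCMulXAddC_apply, comp_eq_aeval]
    rw [← h2]
    exact (MulEquiv.irreducible_iff (algEquivCMulXAddC (Q : ℚ) (b : ℚ))).mpr hf
  rw [e] at h1
  exact (irreducible_isUnit_mul (isUnit_C.mpr (IsUnit.mk0 _ hD'))).mp h1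

/-- If `D = gcd (f b, Q)`, `p ^ j` divides `Q` but not `f b`, and `f (Q m + b) = D h(m)`, then
`p` does not divide `h(m)`. -/
theorem not_dvd_shift {f h : ℤ[X]} {Q b : ℤ} (hQ : Q ≠ 0)
    (hh : f.comp (C Q * X + C b) = C ((Int.gcd (f.eval b) Q : ℕ) : ℤ) * h)
    (p : ℕ) (hp : p.Prime) (j : ℕ) (hpQ : (p : ℤ) ^ j ∣ Q) (hnb : ¬ (p : ℤ) ^ j ∣ f.eval b)
    (m : ℤ) : ¬ (p : ℤ) ∣ h.eval m := by
  intro hdvd
  have hDpos : 0 < Int.gcd (f.eval b) Q := Int.gcd_pos_of_ne_zero_right _ hQ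
  obtain ⟨φ, ψ, hcop, hφ, hψ⟩ := Int.exists_gcd_one hDpos
  have hev := shift_eval hh m
  have hsub : (Q * m + b) - b ∣ f.eval (Q * m + b) - f.eval b := sub_dvd_eval_sub _ _ f
  rw [add_sub_cancel_right] at hsub
  obtain ⟨s, hs⟩ := hsub
  have hD0 : ((Int.gcd (f.eval b) Q : ℕ) : ℤ) ≠ 0 := by exact_mod_cast hDpos.ne'
  have e1 : f.eval (Q * m + b) = f.eval b + Q * m * s := by linarith
  have hcancel : h.eval m = φ + ψ * m * s := by
    generalize ((Int.gcd (f.eval b) Q : ℕ) : ℤ) = g at hφ hψ hev hD0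
    have e2 : g * h.eval m = φ * g + (ψ * g) * m * s := by rw [← hφ, ← hψ, ← hev, e1]
    apply mul_left_cancel₀ hD0
    rw [e2]; ring
  have hpprime : Prime (p : ℤ) := Nat.prime_iff_prime_int.mp hp
  have hnψ : ¬ (p : ℤ) ∣ ψ := by
    intro hψd
    have hφd : (p : ℤ) ∣ φ := by
      have : φ = h.eval m - ψ * m * s := by linarith
      rw [this]
      exact dvd_sub hdvd (Dvd.dvd.mul_right (Dvd.dvd.mul_right hψd _) _)
    have h1 : (p : ℤ) ∣ ((Int.gcd φ ψ : ℕ) : ℤ) := Int.dvd_coe_gcd hφd hψd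
    rw [hcop] at h1
    exact hpprime.not_isUnit (isUnit_of_dvd_one h1)
  have hcopψ : IsCoprime ((p : ℤ) ^ j) ψ := by
    apply IsCoprime.pow_left
    exact hpprime.irreducible.coprime_iff_not_dvd.mpr hnψ
  have hpD : (p : ℤ) ^ j ∣ ((Int.gcd (f.eval b) Q : ℕ) : ℤ) := by
    rw [hψ] at hpQ
    exact hcopψ.dvd_of_dvd_mul_left hpQ
  exact hnb (dvd_trans hpD (Int.gcd_dvd_left _ _))

end Shift

end Vale.Agent.Lib.P018
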