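import Vale.Agent.Lib.P018.Defs

/-!
# P018: sieving by finitely many primes (counting in residue classes)
-/

namespace Vale.Agent.Lib.P018

open Polynomial Finset

section Periodic

theorem card_filter_Ico_blocks (C : ℕ → Prop) [DecidablePred C] (Q : ℕ)
    (hC : Function.Periodic C Q) (a t : ℕ) :
    ((Ico a (a + t * Q)).filter C).card = t * ((range Q).filter C).card := by
  induction t with
  | zero => simp
  | succ t ih =>
    have hsplit : Ico a (a + (t + 1) * Q) =
        Ico a (a + t * Q) ∪ Ico (a + t * Q) (a + t * Q + Q) := by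
      rw [Finset.Ico_union_Ico_eq_Ico (by omega) (by omega)]
      congr 1; ring
    rw [hsplit, Finset.filter_union, Finset.card_union_of_disjoint, ih,
      Nat.filter_Ico_card_eq_of_periodic _ _ _ hC, Nat.count_eq_card_filter_range]
    · ring
    · exact Finset.disjoint_filter_filter (Finset.Ico_disjoint_Ico_consecutive _ _ _)

theorem card_filter_Icc_le (C : ℕ → Prop) [DecidablePred C] (Q : ℕ) (hQ : 0 < Q)
    (hC : Function.Periodic C Q) (X : ℕ) :
    ((Icc 1 X).filter C).card ≤ (X / Q + 1) * ((range Q).filter C).card := by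
  rw [← card_filter_Ico_blocks C Q hC 1 (X / Q + 1)]
  apply Finset.card_le_card
  apply Finset.filter_subset_filter
  intro n hn
  rw [Finset.mem_Icc] at hn
  rw [Finset.mem_Ico]
  have := Nat.lt_div_mul_add hQ (a := X)
  constructor
  · exact hn.1
  · nlinarith

theorem crt_count (m n : ℕ) (hm : 0 < m) (hn : 0 < n) (hco : m.Coprime n)
    (C1 C2 : ℕ → Prop) [DecidablePred C1] [DecidablePred C2]
    (h1 : ∀ a, C1 (a % m) ↔ C1 a) (h2 : ∀ a, C2 (a % n) ↔ C2 a) :
    ((range (m * n)).filter (fun b => C1 b ∧ C2 b)).card =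
      ((range m).filter C1).card * ((range n).filter C2).card := by
  rw [← Finset.card_product, ← Finset.filter_product]
  apply Finset.card_bij (fun b _ => (b % m, b % n))
  · intro b hb
    simp only [mem_filter, mem_range, mem_product] at hb ⊢
    exact ⟨⟨Nat.mod_lt _ hm, Nat.mod_lt _ hn⟩, (h1 b).mpr hb.2.1, (h2 b).mpr hb.2.2⟩
  · intro b hb b' hb' heq
    simp only [mem_filter, mem_range] at hb hb'
    simp only [Prod.mk.injEq] at heq
    have e1 : b ≡ b' [MOD m] := heq.1
    have e2 : b ≡ b' [MOD n] := heq.2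
    have := (Nat.modEq_and_modEq_iff_modEq_mul hco).mp ⟨e1, e2⟩
    exact Nat.ModEq.eq_of_lt_of_lt this hb.1 hb'.1
  · rintro ⟨a, a'⟩ ha
    simp only [mem_filter, mem_range, mem_product] at ha
    obtain ⟨⟨ha1, ha2⟩, hc1, hc2⟩ := ha
    have hb1 : (Nat.chineseRemainder hco a a' : ℕ) % m = a % m := (Nat.chineseRemainder hco a a').2.1
    have hb2 : (Nat.chineseRemainder hco a a' : ℕ) % n = a' % n := (Nat.chineseRemainder hco a a').2.2
    refine ⟨(Nat.chineseRemainder hco a a' : ℕ), ?_, ?_⟩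
    · simp only [mem_filter, mem_range]
      refine ⟨Nat.chineseRemainder_lt_mul hco a a' hm.ne' hn.ne', ?_, ?_⟩
      · rw [← h1, hb1, h1]; exact hc1
      · rw [← h2, hb2, h2]; exact hc2
    · rw [hb1, hb2, Nat.mod_eq_of_lt ha1, Nat.mod_eq_of_lt ha2]

end Periodic

section Sieve

/-- Divisibility of `f b` by `q` only depends on `b` modulo any multiple `M` of `q`. -/
theorem dvd_eval_mod (f : ℤ[X]) (q M : ℕ) (hq : q ∣ M) (b : ℕ) :
    (q : ℤ) ∣ f.eval ((b % M : ℕ) : ℤ) ↔ (q : ℤ) ∣ f.eval (b : ℤ) := by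
  apply dvd_iff_dvd_of_dvd_sub
  have h1 : ((b % M : ℕ) : ℤ) - (b : ℤ) ∣ f.eval ((b % M : ℕ) : ℤ) - f.eval (b : ℤ) :=
    Polynomial.sub_dvd_eval_sub _ _ f
  refine dvd_trans ?_ h1
  have h2 : ((b % M : ℕ) : ℤ) - (b : ℤ) = -((M : ℤ) * ((b / M : ℕ) : ℤ)) := by
    have := Nat.div_add_mod b M
    have h3 : (M : ℤ) * ((b / M : ℕ) : ℤ) + ((b % M : ℕ) : ℤ) = (b : ℤ) := by
      exact_mod_cast this
    linarith
  rw [h2, dvd_neg]
  exact Dvd.dvd.mul_right (Int.natCast_dvd_natCast.mpr hq) _

/-- The modulus of the sieve by the primes in `P` at exponent `k`. -/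
def sieveMod (k : ℕ) (P : Finset Nat.Primes) : ℕ := ∏ p ∈ P, (p : ℕ) ^ k

/-- `b` survives the sieve: no `p ^ k` with `p ∈ P` divides `f b`. -/
def Survives (f : ℤ[X]) (k : ℕ) (P : Finset Nat.Primes) (b : ℕ) : Prop :=
  ∀ p ∈ P, ¬ ((((p : ℕ) ^ k : ℕ) : ℤ) ∣ f.eval (b : ℤ))

instance (f : ℤ[X]) (k : ℕ) (P : Finset Nat.Primes) : DecidablePred (Survives f k P) := by
  intro b
  unfold Survives
  infer_instance

theorem sieveMod_pos (k : ℕ) (P : Finset Nat.Primes) : 0 < sieveMod k P := by
  unfold sieveMod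
  exact Finset.prod_pos fun p _ => pow_pos p.2.pos k

theorem dvd_sieveMod (k : ℕ) (P : Finset Nat.Primes) (p : Nat.Primes) (hp : p ∈ P) :
    (p : ℕ) ^ k ∣ sieveMod k P :=
  Finset.dvd_prod_of_mem (fun p : Nat.Primes => (p : ℕ) ^ k) hp

theorem survives_mod (f : ℤ[X]) (k : ℕ) (P : Finset Nat.Primes) (b : ℕ) :
    Survives f k P (b % sieveMod k P) ↔ Survives f k P b := by
  unfold Survives
  refine forall₂_congr fun p hp => ?_
  rw [dvd_eval_mod f _ _ (dvd_sieveMod k P p hp)]

theorem survives_periodic (f : ℤ[X]) (k : ℕ) (P : Finset Nat.Primes) :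
    Function.Periodic (Survives f k P) (sieveMod k P) := by
  intro b
  apply propext
  rw [← survives_mod f k P (b + sieveMod k P), Nat.add_mod_right, survives_mod]

theorem rho_le (f : ℤ[X]) (q : ℕ) : rho f q ≤ q := by
  unfold rho
  exact le_trans (Finset.card_filter_le _ _) (by simp)

theorem card_not_dvd (f : ℤ[X]) (q : ℕ) :
    ((range q).filter (fun a : ℕ => ¬ ((q : ℤ) ∣ f.eval (a : ℤ)))).card = q - rho f q := by
  have := Finset.card_filter_add_card_filter_not (s := range q)
    (fun a : ℕ => (q : ℤ) ∣ f.eval (a : ℤ))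
  rw [Finset.card_range] at this
  unfold rho
  omega

/-- Chinese remainder count of the survivors modulo the sieve modulus. -/
theorem card_survives (f : ℤ[X]) (k : ℕ) (P : Finset Nat.Primes) :
    ((range (sieveMod k P)).filter (Survives f k P)).card =
      ∏ p ∈ P, ((p : ℕ) ^ k - rho f ((p : ℕ) ^ k)) := by
  classical
  induction P using Finset.induction_on with
  | empty =>
    have hall : ∀ b, Survives f k ∅ b := by
      intro b p hp
      simp at hp
    rw [Finset.filter_true_of_mem (fun b _ => hall b)]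
    simp [sieveMod]
  | insert q P hq ih =>
    have hmod : sieveMod k (insert q P) = (q : ℕ) ^ k * sieveMod k P := by
      unfold sieveMod
      rw [Finset.prod_insert hq]
    have hco : ((q : ℕ) ^ k).Coprime (sieveMod k P) := by
      unfold sieveMod
      apply Nat.Coprime.prod_right
      intro p hp
      apply Nat.Coprime.pow
      rw [Nat.coprime_primes q.2 p.2]
      intro h
      apply hq
      have : q = p := Subtype.ext h
      rw [this]; exact hp
    have hfilter : (range (sieveMod k (insert q P))).filter (Survives f k (insert q P)) =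
        (range ((q : ℕ) ^ k * sieveMod k P)).filter
          (fun b : ℕ => ¬ ((((q : ℕ) ^ k : ℕ) : ℤ) ∣ f.eval (b : ℤ)) ∧ Survives f k P b) := by
      rw [hmod]
      apply Finset.filter_congr
      intro b _
      unfold Survives
      rw [Finset.forall_mem_insert]
    rw [hfilter, crt_count _ _ (pow_pos q.2.pos k) (sieveMod_pos k P) hco, ih,
      Finset.prod_insert hq, card_not_dvd]
    · intro a
      rw [dvd_eval_mod f _ _ (dvd_refl _)]
    · intro a
      exact survives_mod f k P a

/-- The finite Euler product over the primes in `P`. -/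
noncomputable def partialDensity (f : ℤ[X]) (k : ℕ) (P : Finset Nat.Primes) : ℝ :=
  ∏ p ∈ P, (1 - (rho f ((p : ℕ) ^ k) : ℝ) / (((p : ℕ) ^ k : ℕ) : ℝ))

theorem factor_nonneg (f : ℤ[X]) (k : ℕ) (p : Nat.Primes) :
    0 ≤ 1 - (rho f ((p : ℕ) ^ k) : ℝ) / (((p : ℕ) ^ k : ℕ) : ℝ) := by
  have h1 : (rho f ((p : ℕ) ^ k) : ℝ) ≤ (((p : ℕ) ^ k : ℕ) : ℝ) := by
    exact_mod_cast rho_le f _
  have h2 : (0 : ℝ) < (((p : ℕ) ^ k : ℕ) : ℝ) := by
    exact_mod_cast pow_pos p.2.pos k
  rw [sub_nonneg, div_le_one h2]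
  exact h1

theorem factor_le_one (f : ℤ[X]) (k : ℕ) (p : Nat.Primes) :
    1 - (rho f ((p : ℕ) ^ k) : ℝ) / (((p : ℕ) ^ k : ℕ) : ℝ) ≤ 1 := by
  have : (0 : ℝ) ≤ (rho f ((p : ℕ) ^ k) : ℝ) / (((p : ℕ) ^ k : ℕ) : ℝ) := by positivity
  linarith

theorem partialDensity_nonneg (f : ℤ[X]) (k : ℕ) (P : Finset Nat.Primes) :
    0 ≤ partialDensity f k P :=
  Finset.prod_nonneg fun p _ => factor_nonneg f k p

theorem partialDensity_le_one (f : ℤ[X]) (k : ℕ) (P : Finset Nat.Primes) :
    partialDensity f k P ≤ 1 :=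
  Finset.prod_le_one (fun p _ => factor_nonneg f k p) (fun p _ => factor_le_one f k p)

theorem card_survives_real (f : ℤ[X]) (k : ℕ) (P : Finset Nat.Primes) :
    (((range (sieveMod k P)).filter (Survives f k P)).card : ℝ) =
      partialDensity f k P * (sieveMod k P : ℝ) := by
  rw [card_survives, partialDensity, sieveMod]
  push_cast
  rw [← Finset.prod_mul_distrib]
  apply Finset.prod_congr rfl
  intro p _
  have h2 : ((p : ℕ) : ℝ) ^ k ≠ 0 := by
    have := p.2.pos
    positivity
  rw [Nat.cast_sub (rho_le f _)]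
  push_cast
  field_simp

theorem powerFree_survives (f : ℤ[X]) (k : ℕ) (P : Finset Nat.Primes) (n : ℕ)
    (h : IsPowerFree k (f.eval (n : ℤ))) : Survives f k P n := by
  intro p _ hdvd
  apply h.2 p p.2
  push_cast at hdvd
  exact hdvd

/-- Sieve upper bound: the number of `k`-power-free values up to `X` is at most the finite
Euler product times `X + Q`, where `Q` is the sieve modulus. -/
theorem countPowerFree_le (f : ℤ[X]) (k : ℕ) (P : Finset Nat.Primes) (X : ℕ) :
    (countPowerFree f k X : ℝ) ≤ partialDensity f k P * ((X : ℝ) + (sieveMod k P : ℝ)) := by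
  classical
  have h1 : countPowerFree f k X ≤ ((Icc 1 X).filter (Survives f k P)).card := by
    unfold countPowerFree
    apply Finset.card_le_card
    intro n hn
    rw [Finset.mem_filter] at hn ⊢
    exact ⟨hn.1, powerFree_survives f k P n hn.2⟩
  have h2 := card_filter_Icc_le (Survives f k P) (sieveMod k P) (sieveMod_pos k P)
    (survives_periodic f k P) X
  have h3 : (countPowerFree f k X : ℝ) ≤
      ((X / sieveMod k P + 1 : ℕ) : ℝ) * (((range (sieveMod k P)).filter (Survives f k P)).card : ℝ) := by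
    exact_mod_cast le_trans h1 h2
  rw [card_survives_real] at h3
  have h4 : ((X / sieveMod k P + 1 : ℕ) : ℝ) * (sieveMod k P : ℝ) ≤ (X : ℝ) + (sieveMod k P : ℝ) := by
    have : (X / sieveMod k P + 1) * sieveMod k P ≤ X + sieveMod k P := by
      have := Nat.div_mul_le_self X (sieveMod k P)
      nlinarith
    exact_mod_cast this
  have h5 := partialDensity_nonneg f k P
  calc (countPowerFree f k X : ℝ)
      ≤ ((X / sieveMod k P + 1 : ℕ) : ℝ) * (partialDensity f k P * (sieveMod k P : ℝ)) := h3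
    _ = partialDensity f k P * (((X / sieveMod k P + 1 : ℕ) : ℝ) * (sieveMod k P : ℝ)) := by ring
    _ ≤ partialDensity f k P * ((X : ℝ) + (sieveMod k P : ℝ)) :=
        mul_le_mul_of_nonneg_left h4 h5

end Sieve

end Vale.Agent.Lib.P018
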